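import Vale.Agent.P323.Main
import Vale.Agent.P323.Wo

/-! P323: the Partition Principle in permutation models. -/

namespace Vale.Agent.Results.P323.Combined

open Vale.Agent.P323

universe u

theorem result :
    (∀ (G A : Type u) [Group G] [MulAction G A] (I : SupportIdeal G A),
      (∀ D, I.small D → ∀ a ∉ D, ∀ b, ∃ k : G, (∀ d ∈ D, k • d = d) ∧ k • a ≠ a ∧ k • a ≠ b) →
      (∀ D, I.small D → ∃ g : G, (∀ d ∈ D, g • d = d) ∧
        ∃ a b : A, a ≠ b ∧ g • a = b ∧ g • b = a) →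
      ¬ PP I.filter) ∧
    (∀ (A : Type u) [Uncountable A],
      ACwo (countableSupport A).filter ∧ ¬ PP (countableSupport A).filter) ∧
    (∀ (G A : Type u) [Group G] [MulAction G A], PP (finiteSupport G A) →
      ∃ n : ℕ, ∀ E : Finset A, ∃ E' : Finset A, E'.card ≤ n ∧
        ∀ g : G, (∀ a ∈ E', g • a = a) → ∀ a ∈ E, g • a = a) ∧
    ∀ (G : Type u) [Group G] (F : NormalFilter G), HasNormalBase F →
      (PP F ↔ AC F) ∧ (PP F → ∃ M, F.mem M ∧ ∀ K, F.mem K → M ≤ K) :=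
  ⟨fun _ _ _ _ I h1 h2 => not_pp I h1 h2, fun A _ => ⟨acwo_countable A, not_pp_countable A⟩,
    fun _ _ _ _ h => bounded_of_pp h, fun _ _ F h => ⟨pp_iff_ac F h, fun hP => min_of_pp F hP h⟩⟩

end Vale.Agent.Results.P323.Combined
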