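import Vale.Agent.P323.Main

/-! P323: the Partition Principle implies the Axiom of Choice in every permutation model whose
normal filter has a member with a normal base. -/

namespace Vale.Agent.Results.P323.PermutationModels

open Vale.Agent.P323

universe u

theorem result (G : Type u) [Group G] (F : NormalFilter G) :
    (HasNormalBase F → (PP F ↔ AC F)) ∧
    ((∃ H, F.mem H ∧ ∀ a ∈ H, ∀ b ∈ H, a * b = b * a) → (PP F ↔ AC F)) ∧
    ((∀ K, F.mem K → K.FiniteIndex) → (PP F ↔ AC F)) ∧
    (HasNormalBase F → PP F → ∃ M, F.mem M ∧ ∀ K, F.mem K → M ≤ K) := by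
  refine ⟨pp_iff_ac F, fun h => ?_, fun h => pp_iff_ac F (base_of_finiteIndex F h), fun h hP =>
    min_of_pp F hP h⟩
  obtain ⟨H, hH, hc⟩ := h
  exact pp_iff_ac F (base_of_comm F H hH hc)

end Vale.Agent.Results.P323.PermutationModels
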