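import Vale.Agent.P323.Main
import Vale.Agent.P323.Fin

/-! P323: the Partition Principle in permutation models: bounded supports and normal bases. -/

namespace Vale.Agent.Results.P323.Supports

open Vale.Agent.P323

universe u

theorem result :
    (∀ (G A : Type u) [Group G] [MulAction G A], PP (finiteSupport G A) →
      ∃ n : ℕ, ∀ E : Finset A, ∃ E' : Finset A, E'.card ≤ n ∧
        ∀ g : G, (∀ a ∈ E', g • a = a) → ∀ a ∈ E, g • a = a) ∧
    ∀ (G : Type u) [Group G] (F : NormalFilter G),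
      (HasNormalBase F → (PP F ↔ AC F)) ∧
      ((∃ H, F.mem H ∧ ∀ a ∈ H, ∀ b ∈ H, a * b = b * a) → (PP F ↔ AC F)) ∧
      ((∀ K, F.mem K → K.FiniteIndex) → (PP F ↔ AC F)) ∧
      (HasNormalBase F → PP F → ∃ M, F.mem M ∧ ∀ K, F.mem K → M ≤ K) := by
  refine ⟨fun G A _ _ h => bounded_of_pp h, fun G _ F => ⟨pp_iff_ac F, fun h => ?_,
    fun h => pp_iff_ac F (base_of_finiteIndex F h), fun h hP => min_of_pp F hP h⟩⟩
  obtain ⟨H, hH, hc⟩ := h
  exact pp_iff_ac F (base_of_comm F H hH hc)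

end Vale.Agent.Results.P323.Supports
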