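import Vale.Agent.P323.Wo

/-! P323: the Partition Principle fails in permutation models with swaps and without
algebraicity, including models in which choice for well-orderable families holds. -/

namespace Vale.Agent.Results.P323.SwapModels

open Vale.Agent.P323

universe u

theorem result :
    (∀ (G A : Type u) [Group G] [MulAction G A] (I : SupportIdeal G A),
      (∀ D, I.small D → ∀ a ∉ D, ∀ b, ∃ k : G, (∀ d ∈ D, k • d = d) ∧ k • a ≠ a ∧ k • a ≠ b) →
      (∀ D, I.small D → ∃ g : G, (∀ d ∈ D, g • d = d) ∧
        ∃ a b : A, a ≠ b ∧ g • a = b ∧ g • b = a) →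
      ¬ PP I.filter) ∧
    ∀ (A : Type u) [Uncountable A],
      ACwo (countableSupport A).filter ∧ ¬ PP (countableSupport A).filter :=
  ⟨fun _ _ _ _ I h1 h2 => not_pp I h1 h2, fun A _ => ⟨acwo_countable A, not_pp_countable A⟩⟩

end Vale.Agent.Results.P323.SwapModels
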